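import Mathlib
open Finset
open scoped Matrix

namespace Vale.Agent.Lib.P125

/-- tent function on the cycle -/
noncomputable def tent (m : ℕ) (a : ZMod (2 * m)) : ℝ := |(a.val : ℝ) - m|

theorem val_succ (m : ℕ) (hm : 1 ≤ m) (a : ZMod (2 * m)) :
    (a + 1).val = if a.val + 1 = 2 * m then 0 else a.val + 1 := by
  have : NeZero (2 * m) := ⟨by omega⟩
  have h1 : (1 : ZMod (2 * m)).val = 1 := by
    rw [ZMod.val_one_eq_one_mod]
    exact Nat.mod_eq_of_lt (by omega)
  have h2 := ZMod.val_add a 1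
  have h3 := ZMod.val_lt a
  rw [h1] at h2
  split_ifs with h
  · rw [h2, h, Nat.mod_self]
  · rw [h2]; exact Nat.mod_eq_of_lt (by omega)

theorem tent_succ (m : ℕ) (hm : 1 ≤ m) (a : ZMod (2 * m)) :
    tent m (a + 1) - tent m a = if a.val < m then -1 else 1 := by
  have : NeZero (2 * m) := ⟨by omega⟩
  have h3 := ZMod.val_lt a
  unfold tent
  rw [val_succ m hm a]
  have hmR : (1 : ℝ) ≤ m := by exact_mod_cast hm
  split_ifs with h1 h2 h2
  · omega
  · have : (a.val : ℝ) = 2 * m - 1 := by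
      have : (a.val : ℝ) + 1 = 2 * m := by exact_mod_cast h1
      linarith
    rw [this]
    simp only [Nat.cast_zero, zero_sub, abs_neg]
    rw [abs_of_nonneg (by linarith), abs_of_nonneg (by linarith)]
    ring
  · have h4 : (a.val : ℝ) + 1 ≤ m := by exact_mod_cast h2
    push_cast
    rw [abs_of_nonpos (by linarith), abs_of_nonpos (by linarith)]
    ring
  · have h4 : (m : ℝ) ≤ a.val := by exact_mod_cast (not_lt.1 h2)
    push_cast
    rw [abs_of_nonneg (by linarith), abs_of_nonneg (by linarith)]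
    ring

theorem tent_succ_pm (m : ℕ) (hm : 1 ≤ m) (a : ZMod (2 * m)) :
    tent m (a + 1) - tent m a = 1 ∨ tent m (a + 1) - tent m a = -1 := by
  rw [tent_succ m hm a]
  split_ifs
  · right; rfl
  · left; rfl

theorem sum_val_eq_le (n k : ℕ) [NeZero n] :
    ∑ a : ZMod n, (if a.val = k then (1 : ℝ) else 0) ≤ 1 := by
  rw [Finset.sum_boole]
  have : (univ.filter (fun a : ZMod n => a.val = k)).card ≤ 1 := by
    rw [Finset.card_le_one]
    intro a ha b hb
    simp only [mem_filter, mem_univ, true_and] at ha hb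
    exact ZMod.val_injective n (ha.trans hb.symm)
  exact_mod_cast this

theorem tent_double (m : ℕ) [NeZero (2 * m)] (hm : 1 ≤ m) (p : ℝ) :
    ((2 * m : ℝ) - 2) * 2 ^ p ≤ ∑ a : ZMod (2 * m), |tent m (a + 1 + 1) - tent m a| ^ p := by
  have hpos : (0 : ℝ) < 2 ^ p := Real.rpow_pos_of_pos (by norm_num) p
  have key : ∀ a : ZMod (2 * m),
      2 ^ p * (1 - (if a.val = m - 1 then (1 : ℝ) else 0) - (if a.val = 2 * m - 1 then (1 : ℝ) else 0))
        ≤ |tent m (a + 1 + 1) - tent m a| ^ p := by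
    intro a
    have hnn : 0 ≤ |tent m (a + 1 + 1) - tent m a| ^ p := Real.rpow_nonneg (abs_nonneg _) p
    by_cases h1 : a.val = m - 1
    · rw [if_pos h1]
      split_ifs <;> nlinarith
    · by_cases h2 : a.val = 2 * m - 1
      · rw [if_pos h2, if_neg h1]; nlinarith
      · rw [if_neg h1, if_neg h2]
        have e : tent m (a + 1 + 1) - tent m a
            = (tent m (a + 1 + 1) - tent m (a + 1)) + (tent m (a + 1) - tent m a) := by ring
        have h3 := ZMod.val_lt a
        have hv : (a + 1).val = a.val + 1 := by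
          rw [val_succ m hm a]; exact if_neg (by omega)
        rw [e, tent_succ m hm (a + 1), tent_succ m hm a, hv]
        by_cases h4 : a.val < m
        · rw [if_pos h4, if_pos (by omega)]
          norm_num
        · rw [if_neg h4, if_neg (by omega)]
          norm_num
  calc ((2 * m : ℝ) - 2) * 2 ^ p
      ≤ ∑ a : ZMod (2 * m), 2 ^ p * (1 - (if a.val = m - 1 then (1 : ℝ) else 0)
          - (if a.val = 2 * m - 1 then (1 : ℝ) else 0)) := by
        rw [← Finset.mul_sum, Finset.sum_sub_distrib, Finset.sum_sub_distrib]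
        have c1 := sum_val_eq_le (2 * m) (m - 1)
        have c2 := sum_val_eq_le (2 * m) (2 * m - 1)
        have c3 : ∑ _a : ZMod (2 * m), (1 : ℝ) = 2 * m := by
          simp [ZMod.card]
        rw [c3]
        nlinarith
    _ ≤ _ := Finset.sum_le_sum (fun a _ => key a)

variable {X : Type*} [NormedAddCommGroup X] [NormedSpace ℝ X]

theorem cross_sum {A B : Type*} [Fintype A] [Fintype B] (α : A → ℝ) (β : B → ℝ)
    (hα : ∀ a, α a = 1 ∨ α a = -1) (hβ : ∀ b, β b = 1 ∨ β b = -1) (hα0 : ∑ a, α a = 0)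
    (p : ℝ) (u v : X) :
    ∑ a, ∑ b, ‖α a • u + β b • v‖ ^ p
      = ((Fintype.card A : ℝ) * Fintype.card B / 2) * (‖u + v‖ ^ p + ‖u - v‖ ^ p) := by
  have pt : ∀ a b, ‖α a • u + β b • v‖ ^ p
      = (‖u + v‖ ^ p + ‖u - v‖ ^ p) / 2 + α a * (β b * ((‖u + v‖ ^ p - ‖u - v‖ ^ p) / 2)) := by
    intro a b
    rcases hα a with ha | ha <;> rcases hβ b with hb | hb <;> rw [ha, hb]
    · simp only [one_smul]; ring
    · simp only [one_smul, neg_smul, ← sub_eq_add_neg]; ring
    · have : (-1 : ℝ) • u + (1 : ℝ) • v = -(u - v) := by simp; abel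
      rw [this, norm_neg]; ring
    · have : (-1 : ℝ) • u + (-1 : ℝ) • v = -(u + v) := by simp; abel
      rw [this, norm_neg]; ring
  simp_rw [pt]
  simp_rw [Finset.sum_add_distrib, ← Finset.mul_sum, ← Finset.sum_mul]
  rw [hα0]
  simp
  ring

end Vale.Agent.Lib.P125
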