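import Mathlib
import Vale.Agent.Lib.P125.Tent
open Finset
open scoped Matrix

namespace Vale.Agent.Lib.P125

theorem walk_sum {S ι : Type*} [Fintype S] [DecidableEq S] [Fintype ι] (T : ι → S → S) (c : ℝ)
    (g : S → ℝ) (i : S) :
    ∑ j, (c * ∑ s, if T s i = j then (1 : ℝ) else 0) * g j = c * ∑ s, g (T s i) := by
  simp_rw [mul_assoc, Finset.sum_mul, ← Finset.mul_sum]
  rw [Finset.sum_comm]
  congr 1
  apply Finset.sum_congr rfl
  intro s _
  simp

theorem tent_pred_pm (m : ℕ) (hm : 1 ≤ m) (a : ZMod (2 * m)) :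
    tent m (a + -1) - tent m a = 1 ∨ tent m (a + -1) - tent m a = -1 := by
  have h := tent_succ_pm m hm (a + -1)
  rw [neg_add_cancel_right] at h
  rcases h with h | h
  · right; linarith
  · left; linarith

theorem tent_shift_sum (m : ℕ) [NeZero (2 * m)] (x : ZMod (2 * m)) :
    ∑ a : ZMod (2 * m), (tent m (a + x) - tent m a) = 0 := by
  rw [Finset.sum_sub_distrib, sub_eq_zero]
  exact Equiv.sum_comp (Equiv.addRight x) (tent m)

theorem tent_double' (m : ℕ) [NeZero (2 * m)] (hm : 1 ≤ m) (p : ℝ) :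
    ((2 * m : ℝ) - 2) * 2 ^ p ≤ ∑ a : ZMod (2 * m), |tent m (a + -1 + -1) - tent m a| ^ p := by
  refine (tent_double m hm p).trans (le_of_eq ?_)
  rw [← Equiv.sum_comp (Equiv.addRight (-1 + -1 : ZMod (2 * m)))
    (fun a => |tent m (a + 1 + 1) - tent m a| ^ p)]
  apply Finset.sum_congr rfl
  intro a _
  simp only [Equiv.coe_addRight]
  have : a + (-1 + -1) + 1 + 1 = a := by ring
  rw [this, abs_sub_comm]
  congr 3
  ring_nf

variable {X : Type*} [NormedAddCommGroup X] [NormedSpace ℝ X]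

theorem left_sum {A B : Type*} [Fintype A] [Fintype B] (α : A → ℝ) (p : ℝ) (u v : X) :
    ∑ a, ∑ _b : B, ‖α a • u + (0 : ℝ) • v‖ ^ p
      = (Fintype.card B : ℝ) * ((∑ a, |α a| ^ p) * ‖u‖ ^ p) := by
  simp only [zero_smul, add_zero, norm_smul, Real.norm_eq_abs, sum_const, card_univ, nsmul_eq_mul]
  rw [← Finset.mul_sum, Finset.sum_mul]
  congr 1
  apply Finset.sum_congr rfl
  intro a _
  rw [Real.mul_rpow (abs_nonneg _) (norm_nonneg _)]

theorem right_sum {A B : Type*} [Fintype A] [Fintype B] (β : B → ℝ) (p : ℝ) (u v : X) :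
    ∑ _a : A, ∑ b, ‖(0 : ℝ) • u + β b • v‖ ^ p
      = (Fintype.card A : ℝ) * ((∑ b, |β b| ^ p) * ‖v‖ ^ p) := by
  simp only [zero_smul, zero_add, norm_smul, Real.norm_eq_abs, sum_const, card_univ, nsmul_eq_mul]
  rw [Finset.sum_mul]
  congr 1
  apply Finset.sum_congr rfl
  intro a _
  rw [Real.mul_rpow (abs_nonneg _) (norm_nonneg _)]

end Vale.Agent.Lib.P125
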