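import Mathlib
import Vale.Agent.Lib.P125.Walk
open Finset
open scoped Matrix

namespace Vale.Agent.Lib.P125

/-- sign of the change of `val` when `1` is added in `ZMod 2` -/
noncomputable def sgn (z : ZMod 2) : ℝ := ((z + 1).val : ℝ) - (z.val : ℝ)

theorem sgn_pm (z : ZMod 2) : sgn z = 1 ∨ sgn z = -1 := by
  fin_cases z
  · left
    show (((0 : ZMod 2) + 1).val : ℝ) - ((0 : ZMod 2).val : ℝ) = 1
    rw [zero_add]; simp [ZMod.val_one]
  · right
    have : ((1 : ZMod 2) + 1) = 0 := by decide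
    show (((1 : ZMod 2) + 1).val : ℝ) - ((1 : ZMod 2).val : ℝ) = -1
    rw [this]; simp [ZMod.val_one]

theorem sgn_add_one (z : ZMod 2) : sgn (z + 1) = - sgn z := by
  have h : (1 : ZMod 2) + 1 = 0 := by decide
  unfold sgn
  rw [add_assoc, h, add_zero]
  ring

variable {X : Type*} [NormedAddCommGroup X] [NormedSpace ℝ X]

theorem pm_norm (α β : ℝ) (hα : α = 1 ∨ α = -1) (hβ : β = 1 ∨ β = -1) (p : ℝ) (u v : X) :
    ‖α • u + β • v‖ ^ p
      = (‖u + v‖ ^ p + ‖u - v‖ ^ p) / 2 + α * β * ((‖u + v‖ ^ p - ‖u - v‖ ^ p) / 2) := by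
  rcases hα with ha | ha <;> rcases hβ with hb | hb <;> rw [ha, hb]
  · simp only [one_smul]; ring
  · simp only [one_smul, neg_smul, ← sub_eq_add_neg]; ring
  · have : (-1 : ℝ) • u + (1 : ℝ) • v = -(u - v) := by simp; abel
    rw [this, norm_neg]; ring
  · have : (-1 : ℝ) • u + (-1 : ℝ) • v = -(u + v) := by simp; abel
    rw [this, norm_neg]; ring

/-- the linear-type map on the cube -/
noncomputable def cubeMap {n : ℕ} (x : Fin n → X) (a : Fin n → ZMod 2) : X :=
  ∑ l, ((a l).val : ℝ) • x l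

theorem cubeMap_step {n : ℕ} (x : Fin n → X) (a : Fin n → ZMod 2) (i : Fin n) :
    cubeMap x (a + Pi.single i 1) - cubeMap x a = sgn (a i) • x i := by
  unfold cubeMap
  rw [← Finset.sum_sub_distrib]
  rw [Finset.sum_eq_single i]
  · simp [sgn, sub_smul]
  · intro l _ hl
    simp [Pi.single_eq_of_ne hl]
  · intro h; exact absurd (mem_univ i) h

theorem cubeMap_step2 {n : ℕ} (x : Fin n → X) (a : Fin n → ZMod 2) (i j : Fin n) (hij : i ≠ j) :
    cubeMap x (a + Pi.single i 1 + Pi.single j 1) - cubeMap x a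
      = sgn (a i) • x i + sgn (a j) • x j := by
  have h1 := cubeMap_step x (a + Pi.single i 1) j
  have h2 := cubeMap_step x a i
  have h3 : (a + (Pi.single i 1 : Fin n → ZMod 2)) j = a j := by
    simp [Pi.single_eq_of_ne hij.symm]
  rw [h3] at h1
  rw [← h1, ← h2]
  abel

theorem sgn_sum_zero {n : ℕ} (i j : Fin n) (hij : i ≠ j) :
    ∑ a : Fin n → ZMod 2, sgn (a i) * sgn (a j) = 0 := by
  have h := Equiv.sum_comp (Equiv.addRight (Pi.single i 1 : Fin n → ZMod 2))
    (fun a => sgn (a i) * sgn (a j))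
  have h2 : ∀ a : Fin n → ZMod 2,
      sgn ((Equiv.addRight (Pi.single i 1 : Fin n → ZMod 2) a) i)
        * sgn ((Equiv.addRight (Pi.single i 1 : Fin n → ZMod 2) a) j)
      = - (sgn (a i) * sgn (a j)) := by
    intro a
    simp only [Equiv.coe_addRight, Pi.add_apply, Pi.single_eq_same,
      Pi.single_eq_of_ne hij.symm, add_zero, sgn_add_one]
    ring
  simp_rw [h2] at h
  rw [Finset.sum_neg_distrib] at h
  linarith

theorem cube_pair_sum {n : ℕ} (x : Fin n → X) (p : ℝ) (i j : Fin n) (hij : i ≠ j) :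
    ∑ a : Fin n → ZMod 2, ‖cubeMap x (a + Pi.single i 1 + Pi.single j 1) - cubeMap x a‖ ^ p
      = (2 : ℝ) ^ n * ((‖x i + x j‖ ^ p + ‖x i - x j‖ ^ p) / 2) := by
  simp_rw [cubeMap_step2 x _ i j hij, pm_norm _ _ (sgn_pm _) (sgn_pm _)]
  rw [Finset.sum_add_distrib, ← Finset.sum_mul, sgn_sum_zero i j hij]
  simp [ZMod.card]

theorem cube_single_sum {n : ℕ} (x : Fin n → X) (p : ℝ) (i : Fin n) :
    ∑ a : Fin n → ZMod 2, ‖cubeMap x (a + Pi.single i 1) - cubeMap x a‖ ^ p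
      = (2 : ℝ) ^ n * ‖x i‖ ^ p := by
  have : ∀ a : Fin n → ZMod 2, ‖cubeMap x (a + Pi.single i 1) - cubeMap x a‖ ^ p = ‖x i‖ ^ p := by
    intro a
    rw [cubeMap_step, norm_smul]
    rcases sgn_pm (a i) with h | h <;> rw [h] <;> simp
  simp_rw [this]
  simp [ZMod.card]

end Vale.Agent.Lib.P125
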