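import Mathlib
open Finset
open scoped Matrix

namespace Vale.Agent.Lib.P125

/-- `X` has Markov type `p` with constant `K` (Ball 1992): for every stationary reversible finite
Markov chain (state space `S`, stationary law `π`, transition matrix `P` with
`π i * P i j = π j * P j i`), every `f : S → X` and every time `t ≥ 1`,
`E ‖f(Z_t) - f(Z_0)‖^p ≤ K^p * t * E ‖f(Z_1) - f(Z_0)‖^p`, where
`E ‖f(Z_t) - f(Z_0)‖^p = ∑ i j, π i * (P^t) i j * ‖f j - f i‖^p`. -/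
def HasMarkovType (X : Type*) [NormedAddCommGroup X] (p K : ℝ) : Prop :=
  ∀ (S : Type) [Fintype S] [DecidableEq S] (π : S → ℝ) (P : Matrix S S ℝ),
    (∀ i, 0 ≤ π i) → (∑ i, π i = 1) → (∀ i j, 0 ≤ P i j) → (∀ i, ∑ j, P i j = 1) →
    (∀ i j, π i * P i j = π j * P j i) →
    ∀ (f : S → X) (t : ℕ), 1 ≤ t →
      ∑ i, ∑ j, π i * (P ^ t) i j * ‖f j - f i‖ ^ p ≤
        K ^ p * t * ∑ i, ∑ j, π i * P i j * ‖f j - f i‖ ^ p

end Vale.Agent.Lib.P125
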