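import Mathlib
open Finset

namespace Vale.Agent.Lib.P125

variable {X : Type*} [NormedAddCommGroup X]

theorem pair_lower {n : ℕ} (w : Fin n → X) (hw : ∀ l, ‖w l‖ ≤ 1) (i j : Fin n) (hij : i ≠ j) :
    ‖∑ l, w l‖ ≤ ‖w i + w j‖ + ((n : ℝ) - 2) := by
  have hj : j ∈ (univ : Finset (Fin n)).erase i := mem_erase.2 ⟨hij.symm, mem_univ _⟩
  have h1 : ∑ l, w l = (w i + w j) + ∑ l ∈ ((univ : Finset (Fin n)).erase i).erase j, w l := by
    rw [← Finset.add_sum_erase univ w (mem_univ i), ← Finset.add_sum_erase _ w hj, add_assoc]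
  have hc : (((univ : Finset (Fin n)).erase i).erase j).card = n - 2 := by
    rw [card_erase_of_mem hj, card_erase_of_mem (mem_univ i), card_univ, Fintype.card_fin]
    omega
  have hn2 : 2 ≤ n := by
    have := Fin.is_lt i
    have := Fin.is_lt j
    have : i.val ≠ j.val := fun h => hij (Fin.ext h)
    omega
  have h2 : ‖∑ l ∈ ((univ : Finset (Fin n)).erase i).erase j, w l‖ ≤ (n : ℝ) - 2 := by
    calc ‖∑ l ∈ ((univ : Finset (Fin n)).erase i).erase j, w l‖
        ≤ ∑ l ∈ ((univ : Finset (Fin n)).erase i).erase j, ‖w l‖ := norm_sum_le _ _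
      _ ≤ ∑ _l ∈ ((univ : Finset (Fin n)).erase i).erase j, (1 : ℝ) :=
          Finset.sum_le_sum (fun l _ => hw l)
      _ = (n : ℝ) - 2 := by
          rw [sum_const, hc, nsmul_eq_mul, mul_one, Nat.cast_sub hn2]
          norm_num
  rw [h1]
  calc ‖w i + w j + ∑ l ∈ ((univ : Finset (Fin n)).erase i).erase j, w l‖
      ≤ ‖w i + w j‖ + ‖∑ l ∈ ((univ : Finset (Fin n)).erase i).erase j, w l‖ := norm_add_le _ _
    _ ≤ _ := by linarith

/-- if all one-sign-change sums are large then all `x i ± x j` are large -/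
theorem james_pairs {n : ℕ} (x : Fin n → X) (hx : ∀ l, ‖x l‖ ≤ 1) (R : ℝ)
    (hR : ∀ k : ℕ, k ≤ n → R < ‖∑ l : Fin n, (if l.val < k then x l else - x l)‖)
    (i j : Fin n) (hij : i ≠ j) :
    R - ((n : ℝ) - 2) < ‖x i + x j‖ ∧ R - ((n : ℝ) - 2) < ‖x i - x j‖ := by
  have hw : ∀ k : ℕ, ∀ l : Fin n, ‖(if l.val < k then x l else - x l)‖ ≤ 1 := by
    intro k l
    split_ifs
    · exact hx l
    · rw [norm_neg]; exact hx l
  constructor
  · have h1 := pair_lower _ (hw n) i j hij
    have h2 := hR n le_rfl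
    rw [if_pos i.is_lt, if_pos j.is_lt] at h1
    linarith
  · rcases lt_or_gt_of_ne (fun h => hij (Fin.ext h) : i.val ≠ j.val) with h | h
    · have h1 := pair_lower _ (hw (i.val + 1)) i j hij
      have h2 := hR (i.val + 1) i.is_lt
      rw [if_pos (Nat.lt_succ_self _), if_neg (by omega), ← sub_eq_add_neg] at h1
      linarith
    · have h1 := pair_lower _ (hw (j.val + 1)) j i hij.symm
      have h2 := hR (j.val + 1) j.is_lt
      rw [if_pos (Nat.lt_succ_self _), if_neg (by omega), ← sub_eq_add_neg, norm_sub_rev] at h1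
      linarith

end Vale.Agent.Lib.P125
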