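import Mathlib
import Vale.Agent.Lib.P125.Defs
import Vale.Agent.Lib.P125.Walk
import Vale.Agent.Lib.P125.Cube
import Vale.Agent.Lib.P125.James
open Finset
open scoped Matrix

namespace Vale.Agent.Lib.P125

variable {X : Type*} [NormedAddCommGroup X] [NormedSpace ℝ X]

theorem cube_ineq (p K : ℝ) (hX : HasMarkovType X p K) (n : ℕ) (hn : 1 ≤ n) (x : Fin n → X) :
    ∑ i, ∑ j, (if i = j then 0 else (‖x i + x j‖ ^ p + ‖x i - x j‖ ^ p) / 2)
      ≤ 2 * n * K ^ p * ∑ i, ‖x i‖ ^ p := by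
  have hnR : (1 : ℝ) ≤ n := by exact_mod_cast hn
  have hn0 : (n : ℝ) ≠ 0 := by positivity
  let e : Fin n → (Fin n → ZMod 2) := fun i => Pi.single i 1
  let P : Matrix (Fin n → ZMod 2) (Fin n → ZMod 2) ℝ :=
    Matrix.of fun a b => (1 / n : ℝ) * ∑ s, if a + e s = b then (1 : ℝ) else 0
  let f : (Fin n → ZMod 2) → X := cubeMap x
  have hL : ∀ (g : (Fin n → ZMod 2) → ℝ) (a : Fin n → ZMod 2),
      ∑ b, P a b * g b = (1 / n : ℝ) * ∑ s, g (a + e s) := by
    intro g a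
    exact walk_sum (fun s a => a + e s) (1 / n) g a
  have hL2 : ∀ (g : (Fin n → ZMod 2) → ℝ) (a : Fin n → ZMod 2),
      ∑ b, (P ^ 2) a b * g b = (1 / n : ℝ) * ((1 / n : ℝ) * ∑ s, ∑ s', g (a + e s + e s')) := by
    intro g a
    rw [pow_two]
    simp_rw [Matrix.mul_apply, Finset.sum_mul]
    rw [Finset.sum_comm]
    simp_rw [mul_assoc, ← Finset.mul_sum]
    simp_rw [hL g]
    rw [hL (fun k => (1 / n : ℝ) * ∑ s', g (k + e s')) a, ← Finset.mul_sum]
  have hcard : (Fintype.card (Fin n → ZMod 2) : ℝ) = 2 ^ n := by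
    simp [ZMod.card]
  have h := hX (Fin n → ZMod 2) (fun _ => 1 / (2 : ℝ) ^ n) P
    (fun _ => by positivity)
    (by
      simp only [sum_const, card_univ, nsmul_eq_mul]
      rw [hcard]
      field_simp)
    (fun a b => by
      simp only [P, Matrix.of_apply]
      apply mul_nonneg (by positivity)
      apply Finset.sum_nonneg
      intro s _
      split_ifs <;> norm_num)
    (fun a => by
      have := hL (fun _ => 1) a
      simp only [mul_one, sum_const, card_univ, Fintype.card_fin, nsmul_eq_mul] at this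
      rw [this]; field_simp)
    (fun a b => by
      congr 1
      simp only [P, Matrix.of_apply]
      congr 1
      apply Finset.sum_congr rfl
      intro s _
      have e1 : (a + e s = b) ↔ (b + e s = a) := by
        have h2 : e s + e s = 0 := by
          ext l
          simp only [e, Pi.add_apply, Pi.zero_apply]
          by_cases hl : l = s
          · subst hl; simp only [Pi.single_eq_same]; decide
          · simp [Pi.single_eq_of_ne hl]
        constructor <;> (rintro rfl; rw [add_assoc, h2, add_zero])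
      exact if_congr e1 rfl rfl)
    f 2 (by norm_num)
  have hLHS : ∑ a, ∑ b, 1 / (2 : ℝ) ^ n * (P ^ 2) a b * ‖f b - f a‖ ^ p
      = 1 / (2 : ℝ) ^ n * ((1 / n : ℝ) * ((1 / n : ℝ) *
          ∑ s, ∑ s', ∑ a, ‖f (a + e s + e s') - f a‖ ^ p)) := by
    simp_rw [mul_assoc, ← Finset.mul_sum]
    congr 1
    simp_rw [hL2 (fun j => ‖f j - f _‖ ^ p)]
    rw [← Finset.mul_sum, ← Finset.mul_sum]
    congr 2
    rw [Finset.sum_comm]
    apply Finset.sum_congr rfl; intro s _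
    rw [Finset.sum_comm]
  have hRHS : ∑ a, ∑ b, 1 / (2 : ℝ) ^ n * P a b * ‖f b - f a‖ ^ p
      = 1 / (2 : ℝ) ^ n * ((1 / n : ℝ) * ∑ s, ∑ a, ‖f (a + e s) - f a‖ ^ p) := by
    simp_rw [mul_assoc, ← Finset.mul_sum]
    congr 1
    simp_rw [hL (fun j => ‖f j - f _‖ ^ p)]
    rw [← Finset.mul_sum]
    congr 1
    rw [Finset.sum_comm]
  rw [hLHS, hRHS] at h
  have hR : ∑ s, ∑ a, ‖f (a + e s) - f a‖ ^ p = (2 : ℝ) ^ n * ∑ s, ‖x s‖ ^ p := by
    rw [Finset.mul_sum]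
    apply Finset.sum_congr rfl; intro s _
    exact cube_single_sum x p s
  have hLo : (2 : ℝ) ^ n * ∑ i, ∑ j, (if i = j then 0 else (‖x i + x j‖ ^ p + ‖x i - x j‖ ^ p) / 2)
      ≤ ∑ s, ∑ s', ∑ a, ‖f (a + e s + e s') - f a‖ ^ p := by
    rw [Finset.mul_sum]
    apply Finset.sum_le_sum; intro i _
    rw [Finset.mul_sum]
    apply Finset.sum_le_sum; intro j _
    split_ifs with hij
    · rw [mul_zero]
      exact Finset.sum_nonneg (fun a _ => Real.rpow_nonneg (norm_nonneg _) p)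
    · exact le_of_eq (cube_pair_sum x p i j hij).symm
  rw [hR] at h
  have h2n : (0 : ℝ) < 2 ^ n := by positivity
  have h3 : 1 / (2 : ℝ) ^ n * ((1 / n : ℝ) * ((1 / n : ℝ) * ((2 : ℝ) ^ n *
      ∑ i, ∑ j, (if i = j then 0 else (‖x i + x j‖ ^ p + ‖x i - x j‖ ^ p) / 2))))
      ≤ K ^ p * (2 : ℕ) * (1 / (2 : ℝ) ^ n * ((1 / n : ℝ) * ((2 : ℝ) ^ n * ∑ s, ‖x s‖ ^ p))) := by
    refine le_trans ?_ h
    apply mul_le_mul_of_nonneg_left _ (by positivity)
    apply mul_le_mul_of_nonneg_left _ (by positivity)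
    apply mul_le_mul_of_nonneg_left hLo (by positivity)
  set A := ∑ i, ∑ j, (if i = j then 0 else (‖x i + x j‖ ^ p + ‖x i - x j‖ ^ p) / 2) with hA
  set B := ∑ s, ‖x s‖ ^ p with hB
  have h4 : 1 / (2 : ℝ) ^ n * ((1 / n : ℝ) * ((1 / n : ℝ) * ((2 : ℝ) ^ n * A))) = A / (n * n) := by
    field_simp
  have h5 : K ^ p * (2 : ℕ) * (1 / (2 : ℝ) ^ n * ((1 / n : ℝ) * ((2 : ℝ) ^ n * B)))
      = (2 * n * K ^ p * B) / (n * n) := by
    push_cast
    field_simp
  rw [h4, h5] at h3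
  have hnn : (0 : ℝ) < n * n := by positivity
  exact (div_le_div_iff_of_pos_right hnn).1 h3

theorem jconvex (p K : ℝ) (hp : 0 < p) (hK : K ^ p < 2 ^ (p - 1)) (hX : HasMarkovType X p K) :
    ∃ n : ℕ, 2 ≤ n ∧ ∃ δ : ℝ, 0 < δ ∧ ∀ x : Fin n → X, (∀ i, ‖x i‖ ≤ 1) →
      ∃ k : ℕ, k ≤ n ∧ ‖∑ i : Fin n, (if i.val < k then x i else - x i)‖ ≤ n * (1 - δ) := by
  have h2p : (0 : ℝ) < 2 ^ p := Real.rpow_pos_of_pos (by norm_num) p
  have e1 : (2 : ℝ) ^ (p - 1) = 2 ^ p / 2 := by rw [Real.rpow_sub_one (by norm_num)]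
  rw [e1] at hK
  set κ := max (K ^ p) 0 with hκdef
  have hκ0 : 0 ≤ κ := le_max_right _ _
  have hκ : κ < 2 ^ p / 2 := max_lt hK (by positivity)
  have hgap : 0 < 2 ^ p - 2 * κ := by linarith
  obtain ⟨N, hN⟩ := exists_nat_gt (2 ^ p / (2 ^ p - 2 * κ))
  refine ⟨N + 2, by omega, ?_⟩
  set n : ℕ := N + 2 with hn
  have hnN : (N : ℝ) + 2 = n := by rw [hn]; push_cast; ring
  have hn2 : (2 : ℝ) ≤ n := by rw [← hnN]; have : (0 : ℝ) ≤ N := Nat.cast_nonneg N; linarith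
  have hn1 : (0 : ℝ) < (n : ℝ) - 1 := by linarith
  have hbig : 2 ^ p < n * (2 ^ p - 2 * κ) := by
    rw [div_lt_iff₀ hgap] at hN
    have : (N : ℝ) ≤ n := by rw [← hnN]; linarith
    nlinarith
  set c := 2 * κ * n / ((n : ℝ) - 1) with hc
  have hc0 : 0 ≤ c := by rw [hc]; positivity
  have hc2 : c < 2 ^ p := by
    rw [hc, div_lt_iff₀ hn1]; nlinarith
  set ρ := c ^ p⁻¹ with hρ
  have hρ0 : 0 ≤ ρ := Real.rpow_nonneg hc0 _
  have hρ2 : ρ < 2 := (Real.rpow_inv_lt_iff_of_pos hc0 (by norm_num) hp).2 hc2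
  refine ⟨(2 - ρ) / (2 * n), by apply div_pos <;> linarith, ?_⟩
  intro x hx
  by_contra hcon
  have hcon' : ∀ k : ℕ, k ≤ n → (n : ℝ) * (1 - (2 - ρ) / (2 * n))
      < ‖∑ i : Fin n, (if i.val < k then x i else - x i)‖ := by
    intro k hk
    by_contra h
    exact hcon ⟨k, hk, not_lt.1 h⟩
  have hr : (n : ℝ) * (1 - (2 - ρ) / (2 * n)) - ((n : ℝ) - 2) = (2 + ρ) / 2 := by
    have : (n : ℝ) ≠ 0 := by linarith
    field_simp
    ring
  have hpairs := fun i j hij => james_pairs x hx _ hcon' i j hij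
  simp only [hr] at hpairs
  set r := (2 + ρ) / 2 with hrdef
  have hr0 : 0 ≤ r := by rw [hrdef]; linarith
  have hρr : ρ < r := by rw [hrdef]; linarith
  have hrp : c < r ^ p := by
    have h1 : ρ ^ p = c := Real.rpow_inv_rpow hc0 hp.ne'
    rw [← h1]
    exact Real.rpow_lt_rpow hρ0 hρr hp
  have hA : ∑ i : Fin n, ∑ j : Fin n, (if i = j then 0 else r ^ p)
      ≤ ∑ i, ∑ j, (if i = j then 0 else (‖x i + x j‖ ^ p + ‖x i - x j‖ ^ p) / 2) := by
    apply Finset.sum_le_sum; intro i _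
    apply Finset.sum_le_sum; intro j _
    split_ifs with hij
    · exact le_rfl
    · have h1 := Real.rpow_le_rpow hr0 (hpairs i j hij).1.le hp.le
      have h2 := Real.rpow_le_rpow hr0 (hpairs i j hij).2.le hp.le
      linarith
  have hA2 : ∑ i : Fin n, ∑ j : Fin n, (if i = j then 0 else r ^ p) = n * ((n : ℝ) - 1) * r ^ p := by
    have : ∀ i : Fin n, ∑ j : Fin n, (if i = j then 0 else r ^ p) = ((n : ℝ) - 1) * r ^ p := by
      intro i
      have h1 : ∀ j : Fin n, (if i = j then 0 else r ^ p) = r ^ p - (if i = j then r ^ p else 0) := by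
        intro j; split_ifs <;> simp
      simp_rw [h1]
      rw [Finset.sum_sub_distrib, Finset.sum_ite_eq]
      simp
      ring
    simp_rw [this]
    simp
    ring
  have hB : ∑ i, ‖x i‖ ^ p ≤ n := by
    calc ∑ i, ‖x i‖ ^ p ≤ ∑ _i : Fin n, (1 : ℝ) :=
          Finset.sum_le_sum (fun i _ => Real.rpow_le_one (norm_nonneg _) (hx i) hp.le)
      _ = n := by simp
  have hB0 : 0 ≤ ∑ i, ‖x i‖ ^ p := Finset.sum_nonneg (fun i _ => Real.rpow_nonneg (norm_nonneg _) p)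
  have hcube := cube_ineq p K hX n (by omega) x
  have h6 : 2 * n * K ^ p * ∑ i, ‖x i‖ ^ p ≤ 2 * n * κ * n := by
    calc 2 * n * K ^ p * ∑ i, ‖x i‖ ^ p ≤ 2 * n * κ * ∑ i, ‖x i‖ ^ p := by
          apply mul_le_mul_of_nonneg_right _ hB0
          apply mul_le_mul_of_nonneg_left (le_max_left _ _) (by linarith)
      _ ≤ 2 * n * κ * n := by
          apply mul_le_mul_of_nonneg_left hB
          have : (0 : ℝ) ≤ n := by linarith
          positivity
  have h7 : n * ((n : ℝ) - 1) * r ^ p ≤ 2 * n * κ * n := by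
    rw [← hA2]; linarith
  have h8 : n * ((n : ℝ) - 1) * c = 2 * n * κ * n := by
    rw [hc]; field_simp
  have h9 : 0 < n * ((n : ℝ) - 1) := by
    apply mul_pos <;> linarith
  nlinarith

end Vale.Agent.Lib.P125
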