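import Mathlib
import Vale.Agent.Lib.P125.Defs
import Vale.Agent.Lib.P125.Walk
open Finset
open scoped Matrix

namespace Vale.Agent.Lib.P125

variable {X : Type*} [NormedAddCommGroup X] [NormedSpace ℝ X]

theorem key (p K : ℝ) (hX : HasMarkovType X p K) (u v : X) (m : ℕ) (hm : 1 ≤ m) :
    (‖u + v‖ ^ p + ‖u - v‖ ^ p) / 4 + 2 ^ p / 8 * (1 - 1 / m) * (‖u‖ ^ p + ‖v‖ ^ p)
      ≤ K ^ p * (‖u‖ ^ p + ‖v‖ ^ p) := by
  have hne : NeZero (2 * m) := ⟨by omega⟩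
  let st : Fin 4 → ZMod (2 * m) × ZMod (2 * m) := ![(1, 0), (-1, 0), (0, 1), (0, -1)]
  let P : Matrix (ZMod (2 * m) × ZMod (2 * m)) (ZMod (2 * m) × ZMod (2 * m)) ℝ :=
    Matrix.of fun i j => (1 / 4 : ℝ) * ∑ s, if i + st s = j then (1 : ℝ) else 0
  have hmR : (1 : ℝ) ≤ m := by exact_mod_cast hm
  let f : ZMod (2 * m) × ZMod (2 * m) → X := fun i => tent m i.1 • u + tent m i.2 • v
  have hcard : (Fintype.card (ZMod (2 * m)) : ℝ) = 2 * m := by rw [ZMod.card]; push_cast; ring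
  have hL : ∀ (g : ZMod (2 * m) × ZMod (2 * m) → ℝ) (i : ZMod (2 * m) × ZMod (2 * m)),
      ∑ j, P i j * g j = (1 / 4 : ℝ) * ∑ s, g (i + st s) := by
    intro g i
    exact walk_sum (fun s i => i + st s) (1 / 4) g i
  have hL2 : ∀ (g : ZMod (2 * m) × ZMod (2 * m) → ℝ) (i : ZMod (2 * m) × ZMod (2 * m)),
      ∑ j, (P ^ 2) i j * g j = (1 / 16 : ℝ) * ∑ s, ∑ s', g (i + st s + st s') := by
    intro g i
    rw [pow_two]
    simp_rw [Matrix.mul_apply, Finset.sum_mul]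
    rw [Finset.sum_comm]
    simp_rw [mul_assoc, ← Finset.mul_sum]
    simp_rw [hL g]
    rw [hL (fun k => (1 / 4 : ℝ) * ∑ s', g (k + st s')) i, ← Finset.mul_sum]
    ring
  have h := hX (ZMod (2 * m) × ZMod (2 * m)) (fun _ => 1 / ((2 * m : ℝ) * (2 * m : ℝ))) P
    (fun _ => by positivity)
    (by
      simp only [sum_const, card_univ, nsmul_eq_mul]
      rw [Fintype.card_prod]
      push_cast
      rw [hcard]
      field_simp)
    (fun i j => by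
      simp only [P, Matrix.of_apply]
      apply mul_nonneg (by norm_num)
      apply Finset.sum_nonneg
      intro s _
      split_ifs <;> norm_num)
    (fun i => by
      have := hL (fun _ => 1) i
      simp only [mul_one, sum_const, card_univ, Fintype.card_fin, nsmul_eq_mul] at this
      rw [this]; norm_num)
    (fun i j => by
      congr 1
      simp only [P, Matrix.of_apply]
      congr 1
      simp only [Fin.sum_univ_four]
      have e1 : (i + st 0 = j) ↔ (j + st 1 = i) := by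
        show (i + (1, 0) = j) ↔ (j + (-1, 0) = i)
        constructor <;> (rintro rfl; ext <;> simp)
      have e2 : (i + st 1 = j) ↔ (j + st 0 = i) := by
        show (i + (-1, 0) = j) ↔ (j + (1, 0) = i)
        constructor <;> (rintro rfl; ext <;> simp)
      have e3 : (i + st 2 = j) ↔ (j + st 3 = i) := by
        show (i + (0, 1) = j) ↔ (j + (0, -1) = i)
        constructor <;> (rintro rfl; ext <;> simp)
      have e4 : (i + st 3 = j) ↔ (j + st 2 = i) := by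
        show (i + (0, -1) = j) ↔ (j + (0, 1) = i)
        constructor <;> (rintro rfl; ext <;> simp)
      rw [if_congr e1 rfl rfl, if_congr e2 rfl rfl, if_congr e3 rfl rfl, if_congr e4 rfl rfl]
      ring)
    f 2 (by norm_num)
  -- coordinate form of the increments
  have hQ : ∀ x y : ZMod (2 * m) × ZMod (2 * m), ∑ i, ‖f (i + x + y) - f i‖ ^ p
      = ∑ a, ∑ b, ‖(tent m (a + x.1 + y.1) - tent m a) • u
          + (tent m (b + x.2 + y.2) - tent m b) • v‖ ^ p := by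
    intro x y
    rw [Fintype.sum_prod_type]
    apply Finset.sum_congr rfl; intro a _
    apply Finset.sum_congr rfl; intro b _
    congr 2
    simp only [f, Prod.fst_add, Prod.snd_add, sub_smul]
    abel
  have hQ1 : ∀ x : ZMod (2 * m) × ZMod (2 * m), ∑ i, ‖f (i + x) - f i‖ ^ p
      = ∑ a, ∑ b, ‖(tent m (a + x.1) - tent m a) • u
          + (tent m (b + x.2) - tent m b) • v‖ ^ p := by
    intro x
    rw [Fintype.sum_prod_type]
    apply Finset.sum_congr rfl; intro a _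
    apply Finset.sum_congr rfl; intro b _
    congr 2
    simp only [f, Prod.fst_add, Prod.snd_add, sub_smul]
    abel
  have hpm : ∀ ε : ZMod (2 * m), (ε = 1 ∨ ε = -1) → ∀ a, tent m (a + ε) - tent m a = 1
      ∨ tent m (a + ε) - tent m a = -1 := by
    rintro ε (rfl | rfl) a
    · exact tent_succ_pm m hm a
    · exact tent_pred_pm m hm a
  have hC : ∀ ε1 ε2 : ZMod (2 * m), (ε1 = 1 ∨ ε1 = -1) → (ε2 = 1 ∨ ε2 = -1) →
      ∑ a, ∑ b, ‖(tent m (a + ε1) - tent m a) • u + (tent m (b + ε2) - tent m b) • v‖ ^ p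
        = ((2 * m : ℝ) * (2 * m) / 2) * (‖u + v‖ ^ p + ‖u - v‖ ^ p) := by
    intro ε1 ε2 h1 h2
    rw [cross_sum _ _ (hpm ε1 h1) (hpm ε2 h2) (tent_shift_sum m ε1), hcard]
  have hone : ∀ ε : ZMod (2 * m), (ε = 1 ∨ ε = -1) →
      ∑ a : ZMod (2 * m), |tent m (a + ε) - tent m a| ^ p = 2 * m := by
    intro ε h1
    rw [Finset.sum_congr rfl (g := fun _ => (1 : ℝ))]
    · simp [ZMod.card]
    · intro a _
      rcases hpm ε h1 a with h | h <;> rw [h] <;> simp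
  have hnn : ∀ x y : ZMod (2 * m) × ZMod (2 * m), 0 ≤ ∑ i, ‖f (i + x + y) - f i‖ ^ p :=
    fun x y => Finset.sum_nonneg (fun i _ => Real.rpow_nonneg (norm_nonneg _) p)
  have hU : 0 ≤ ‖u‖ ^ p := Real.rpow_nonneg (norm_nonneg _) p
  have hV : 0 ≤ ‖v‖ ^ p := Real.rpow_nonneg (norm_nonneg _) p
  -- one-step sums
  have r0 : ∑ i, ‖f (i + st 0) - f i‖ ^ p = (2 * m : ℝ) * ((2 * m : ℝ) * ‖u‖ ^ p) := by
    rw [hQ1]
    show ∑ a, ∑ b, ‖(tent m (a + 1) - tent m a) • u + (tent m (b + 0) - tent m b) • v‖ ^ p = _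
    simp only [add_zero, sub_self]
    rw [left_sum, hcard, hone 1 (Or.inl rfl)]
  have r1 : ∑ i, ‖f (i + st 1) - f i‖ ^ p = (2 * m : ℝ) * ((2 * m : ℝ) * ‖u‖ ^ p) := by
    rw [hQ1]
    show ∑ a, ∑ b, ‖(tent m (a + -1) - tent m a) • u + (tent m (b + 0) - tent m b) • v‖ ^ p = _
    simp only [add_zero, sub_self]
    rw [left_sum, hcard, hone (-1) (Or.inr rfl)]
  have r2 : ∑ i, ‖f (i + st 2) - f i‖ ^ p = (2 * m : ℝ) * ((2 * m : ℝ) * ‖v‖ ^ p) := by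
    rw [hQ1]
    show ∑ a, ∑ b, ‖(tent m (a + 0) - tent m a) • u + (tent m (b + 1) - tent m b) • v‖ ^ p = _
    simp only [add_zero, sub_self]
    rw [right_sum, hcard, hone 1 (Or.inl rfl)]
  have r3 : ∑ i, ‖f (i + st 3) - f i‖ ^ p = (2 * m : ℝ) * ((2 * m : ℝ) * ‖v‖ ^ p) := by
    rw [hQ1]
    show ∑ a, ∑ b, ‖(tent m (a + 0) - tent m a) • u + (tent m (b + -1) - tent m b) • v‖ ^ p = _
    simp only [add_zero, sub_self]
    rw [right_sum, hcard, hone (-1) (Or.inr rfl)]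
  -- two-step sums
  have t00 : (2 * m : ℝ) * ((((2 * m : ℝ) - 2) * 2 ^ p) * ‖u‖ ^ p)
      ≤ ∑ i, ‖f (i + st 0 + st 0) - f i‖ ^ p := by
    rw [hQ]
    show _ ≤ ∑ a, ∑ b, ‖(tent m (a + 1 + 1) - tent m a) • u
      + (tent m (b + 0 + 0) - tent m b) • v‖ ^ p
    simp only [add_zero, sub_self]
    rw [left_sum, hcard]
    exact mul_le_mul_of_nonneg_left (mul_le_mul_of_nonneg_right (tent_double m hm p) hU)
      (by positivity)
  have t11 : (2 * m : ℝ) * ((((2 * m : ℝ) - 2) * 2 ^ p) * ‖u‖ ^ p)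
      ≤ ∑ i, ‖f (i + st 1 + st 1) - f i‖ ^ p := by
    rw [hQ]
    show _ ≤ ∑ a, ∑ b, ‖(tent m (a + -1 + -1) - tent m a) • u
      + (tent m (b + 0 + 0) - tent m b) • v‖ ^ p
    simp only [add_zero, sub_self]
    rw [left_sum, hcard]
    exact mul_le_mul_of_nonneg_left (mul_le_mul_of_nonneg_right (tent_double' m hm p) hU)
      (by positivity)
  have t22 : (2 * m : ℝ) * ((((2 * m : ℝ) - 2) * 2 ^ p) * ‖v‖ ^ p)
      ≤ ∑ i, ‖f (i + st 2 + st 2) - f i‖ ^ p := by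
    rw [hQ]
    show _ ≤ ∑ a, ∑ b, ‖(tent m (a + 0 + 0) - tent m a) • u
      + (tent m (b + 1 + 1) - tent m b) • v‖ ^ p
    simp only [add_zero, sub_self]
    rw [right_sum, hcard]
    exact mul_le_mul_of_nonneg_left (mul_le_mul_of_nonneg_right (tent_double m hm p) hV)
      (by positivity)
  have t33 : (2 * m : ℝ) * ((((2 * m : ℝ) - 2) * 2 ^ p) * ‖v‖ ^ p)
      ≤ ∑ i, ‖f (i + st 3 + st 3) - f i‖ ^ p := by
    rw [hQ]
    show _ ≤ ∑ a, ∑ b, ‖(tent m (a + 0 + 0) - tent m a) • u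
      + (tent m (b + -1 + -1) - tent m b) • v‖ ^ p
    simp only [add_zero, sub_self]
    rw [right_sum, hcard]
    exact mul_le_mul_of_nonneg_left (mul_le_mul_of_nonneg_right (tent_double' m hm p) hV)
      (by positivity)
  have t02 : ∑ i, ‖f (i + st 0 + st 2) - f i‖ ^ p
      = ((2 * m : ℝ) * (2 * m) / 2) * (‖u + v‖ ^ p + ‖u - v‖ ^ p) := by
    rw [hQ]
    show ∑ a, ∑ b, ‖(tent m (a + 1 + 0) - tent m a) • u
      + (tent m (b + 0 + 1) - tent m b) • v‖ ^ p = _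
    simp only [add_zero]
    exact hC 1 1 (Or.inl rfl) (Or.inl rfl)
  have t03 : ∑ i, ‖f (i + st 0 + st 3) - f i‖ ^ p
      = ((2 * m : ℝ) * (2 * m) / 2) * (‖u + v‖ ^ p + ‖u - v‖ ^ p) := by
    rw [hQ]
    show ∑ a, ∑ b, ‖(tent m (a + 1 + 0) - tent m a) • u
      + (tent m (b + 0 + -1) - tent m b) • v‖ ^ p = _
    simp only [add_zero]
    exact hC 1 (-1) (Or.inl rfl) (Or.inr rfl)
  have t12 : ∑ i, ‖f (i + st 1 + st 2) - f i‖ ^ p
      = ((2 * m : ℝ) * (2 * m) / 2) * (‖u + v‖ ^ p + ‖u - v‖ ^ p) := by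
    rw [hQ]
    show ∑ a, ∑ b, ‖(tent m (a + -1 + 0) - tent m a) • u
      + (tent m (b + 0 + 1) - tent m b) • v‖ ^ p = _
    simp only [add_zero]
    exact hC (-1) 1 (Or.inr rfl) (Or.inl rfl)
  have t13 : ∑ i, ‖f (i + st 1 + st 3) - f i‖ ^ p
      = ((2 * m : ℝ) * (2 * m) / 2) * (‖u + v‖ ^ p + ‖u - v‖ ^ p) := by
    rw [hQ]
    show ∑ a, ∑ b, ‖(tent m (a + -1 + 0) - tent m a) • u
      + (tent m (b + 0 + -1) - tent m b) • v‖ ^ p = _
    simp only [add_zero]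
    exact hC (-1) (-1) (Or.inr rfl) (Or.inr rfl)
  have t20 : ∑ i, ‖f (i + st 2 + st 0) - f i‖ ^ p
      = ((2 * m : ℝ) * (2 * m) / 2) * (‖u + v‖ ^ p + ‖u - v‖ ^ p) := by
    rw [hQ]
    show ∑ a, ∑ b, ‖(tent m (a + 0 + 1) - tent m a) • u
      + (tent m (b + 1 + 0) - tent m b) • v‖ ^ p = _
    simp only [add_zero]
    exact hC 1 1 (Or.inl rfl) (Or.inl rfl)
  have t21 : ∑ i, ‖f (i + st 2 + st 1) - f i‖ ^ p
      = ((2 * m : ℝ) * (2 * m) / 2) * (‖u + v‖ ^ p + ‖u - v‖ ^ p) := by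
    rw [hQ]
    show ∑ a, ∑ b, ‖(tent m (a + 0 + -1) - tent m a) • u
      + (tent m (b + 1 + 0) - tent m b) • v‖ ^ p = _
    simp only [add_zero]
    exact hC (-1) 1 (Or.inr rfl) (Or.inl rfl)
  have t30 : ∑ i, ‖f (i + st 3 + st 0) - f i‖ ^ p
      = ((2 * m : ℝ) * (2 * m) / 2) * (‖u + v‖ ^ p + ‖u - v‖ ^ p) := by
    rw [hQ]
    show ∑ a, ∑ b, ‖(tent m (a + 0 + 1) - tent m a) • u
      + (tent m (b + -1 + 0) - tent m b) • v‖ ^ p = _
    simp only [add_zero]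
    exact hC 1 (-1) (Or.inl rfl) (Or.inr rfl)
  have t31 : ∑ i, ‖f (i + st 3 + st 1) - f i‖ ^ p
      = ((2 * m : ℝ) * (2 * m) / 2) * (‖u + v‖ ^ p + ‖u - v‖ ^ p) := by
    rw [hQ]
    show ∑ a, ∑ b, ‖(tent m (a + 0 + -1) - tent m a) • u
      + (tent m (b + -1 + 0) - tent m b) • v‖ ^ p = _
    simp only [add_zero]
    exact hC (-1) (-1) (Or.inr rfl) (Or.inr rfl)
  have t01 := hnn (st 0) (st 1)
  have t10 := hnn (st 1) (st 0)
  have t23 := hnn (st 2) (st 3)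
  have t32 := hnn (st 3) (st 2)
  -- rewrite both sides of the Markov type inequality
  have hLHS : ∑ i, ∑ j, 1 / ((2 * m : ℝ) * (2 * m : ℝ)) * (P ^ 2) i j * ‖f j - f i‖ ^ p
      = 1 / ((2 * m : ℝ) * (2 * m : ℝ)) * ((1 / 16 : ℝ) *
          ∑ s, ∑ s', ∑ i, ‖f (i + st s + st s') - f i‖ ^ p) := by
    simp_rw [mul_assoc, ← Finset.mul_sum]
    congr 1
    simp_rw [hL2 (fun j => ‖f j - f _‖ ^ p)]
    rw [← Finset.mul_sum]
    congr 1
    rw [Finset.sum_comm]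
    apply Finset.sum_congr rfl; intro s _
    rw [Finset.sum_comm]
  have hRHS : ∑ i, ∑ j, 1 / ((2 * m : ℝ) * (2 * m : ℝ)) * P i j * ‖f j - f i‖ ^ p
      = 1 / ((2 * m : ℝ) * (2 * m : ℝ)) * ((1 / 4 : ℝ) *
          ∑ s, ∑ i, ‖f (i + st s) - f i‖ ^ p) := by
    simp_rw [mul_assoc, ← Finset.mul_sum]
    congr 1
    simp_rw [hL (fun j => ‖f j - f _‖ ^ p)]
    rw [← Finset.mul_sum]
    congr 1
    rw [Finset.sum_comm]
  rw [hLHS, hRHS] at h
  simp only [Fin.sum_univ_four] at h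
  rw [r0, r1, r2, r3, t02, t03, t12, t13, t20, t21, t30, t31] at h
  have hm0 : (m : ℝ) ≠ 0 := by positivity
  have hc : 0 ≤ 1 / ((2 * m : ℝ) * (2 * m : ℝ)) := by positivity
  calc (‖u + v‖ ^ p + ‖u - v‖ ^ p) / 4 + 2 ^ p / 8 * (1 - 1 / m) * (‖u‖ ^ p + ‖v‖ ^ p)
      = 1 / ((2 * m : ℝ) * (2 * m : ℝ)) * ((1 / 16 : ℝ) *
          (2 * ((2 * m : ℝ) * ((((2 * m : ℝ) - 2) * 2 ^ p) * ‖u‖ ^ p))
          + 2 * ((2 * m : ℝ) * ((((2 * m : ℝ) - 2) * 2 ^ p) * ‖v‖ ^ p))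
          + 8 * (((2 * m : ℝ) * (2 * m) / 2) * (‖u + v‖ ^ p + ‖u - v‖ ^ p)))) := by
        field_simp
        ring
    _ ≤ _ := by
        refine le_trans ?_ h
        apply mul_le_mul_of_nonneg_left _ hc
        apply mul_le_mul_of_nonneg_left _ (by norm_num)
        linarith
    _ = K ^ p * (‖u‖ ^ p + ‖v‖ ^ p) := by
        push_cast
        field_simp
        ring

theorem main_ineq (p K : ℝ) (hX : HasMarkovType X p K) (u v : X) :
    ‖u + v‖ ^ p + ‖u - v‖ ^ p ≤ (4 * K ^ p - 2 ^ (p - 1)) * (‖u‖ ^ p + ‖v‖ ^ p) := by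
  have h2 : (2 : ℝ) ^ (p - 1) = 2 ^ p / 2 := by
    rw [Real.rpow_sub_one (by norm_num)]
  rw [h2]
  have hW : 0 ≤ ‖u‖ ^ p + ‖v‖ ^ p :=
    add_nonneg (Real.rpow_nonneg (norm_nonneg _) p) (Real.rpow_nonneg (norm_nonneg _) p)
  have h2p : (0 : ℝ) < 2 ^ p := Real.rpow_pos_of_pos (by norm_num) p
  by_contra hcon
  rw [not_le] at hcon
  set D := ‖u + v‖ ^ p + ‖u - v‖ ^ p with hD
  set W := ‖u‖ ^ p + ‖v‖ ^ p with hWdef
  set g := D / 4 + 2 ^ p / 8 * W - K ^ p * W with hg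
  have hgpos : 0 < g := by rw [hg]; linarith
  obtain ⟨n, hn⟩ := exists_nat_gt ((2 ^ p / 8 * W) / g)
  have hn1 : 1 ≤ n + 1 := by omega
  have hk := key p K hX u v (n + 1) hn1
  rw [← hD, ← hWdef] at hk
  have hnpos : (0 : ℝ) < ((n + 1 : ℕ) : ℝ) := by positivity
  have h3 : g ≤ 2 ^ p / 8 * W * (1 / ((n + 1 : ℕ) : ℝ)) := by
    rw [hg]; linarith
  have h4 : g * ((n + 1 : ℕ) : ℝ) ≤ 2 ^ p / 8 * W := by
    have := mul_le_mul_of_nonneg_right h3 hnpos.le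
    rwa [mul_assoc, one_div, inv_mul_cancel₀ hnpos.ne', mul_one] at this
  have h5 : 2 ^ p / 8 * W < n * g := by
    rwa [div_lt_iff₀ hgpos] at hn
  push_cast at h4
  nlinarith

end Vale.Agent.Lib.P125
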